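import Vale.Agent.P183.R2.H577.Base

/-! P183: elimination over local corners (row 4). -/

namespace Vale.Agent.P183.H577

namespace H726

open Matrix

section corner

variable {R : Type} [Ring R] {ι : Type}

/-- `x` is a unit of the corner of the idempotent `f` -/
def Un (f x : R) : Prop := ∃ y, f * y = y ∧ y * f = y ∧ x * y = f ∧ y * x = f

theorem left_of_right {f : R} (hf : f * f = f) (h0 : f ≠ 0)
    (hl : ∀ x, f * x = x → x * f = x → Un f x ∨ Un f (f - x)) {x y : R}
    (hx : f * x = x) (hx' : x * f = x) (hy : f * y = y) (_hy' : y * f = y) (h : x * y = f) :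
    y * x = f := by
  have hq : (y * x) * (y * x) = y * x := by
    rw [mul_assoc, ← mul_assoc x y x, h, hx]
  rcases hl (y * x) (by rw [← mul_assoc, hy]) (by rw [mul_assoc, hx']) with
    ⟨z, hz, hz', h1, h2⟩ | ⟨z, hz, hz', h1, h2⟩
  · calc y * x = y * x * f := by rw [mul_assoc, hx']
      _ = y * x * (y * x * z) := by rw [h1]
      _ = (y * x * (y * x)) * z := by rw [← mul_assoc]
      _ = f := by rw [hq, h1]
  · exfalso
    have h3 : y * x = 0 := by
      calc y * x = y * x * f := by rw [mul_assoc, hx']
        _ = y * x * ((f - y * x) * z) := by rw [h1]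
        _ = (y * x * f - (y * x) * (y * x)) * z := by rw [← mul_assoc, mul_sub]
        _ = 0 := by rw [hq, mul_assoc y x f, hx', sub_self, zero_mul]
    apply h0
    calc f = f * f := hf.symm
      _ = (x * y) * (x * y) := by rw [h]
      _ = x * (y * x) * y := by rw [mul_assoc, ← mul_assoc y x y, ← mul_assoc]
      _ = 0 := by rw [h3, mul_zero, zero_mul]

theorem exists_term {f : R} (hf : f * f = f) (h0 : f ≠ 0)
    (hl : ∀ x, f * x = x → x * f = x → Un f x ∨ Un f (f - x)) [DecidableEq ι] (s : Finset ι)
    (u : ι → R) (hu : ∀ a, f * u a = u a ∧ u a * f = u a) :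
    ∀ v, f * v = v → v * f = v → Un f v → ∑ a ∈ s, u a = v → ∃ a ∈ s, Un f (u a) := by
  induction s using Finset.induction_on with
  | empty =>
    intro v _ _ hv hs
    obtain ⟨y, _, _, h1, _⟩ := hv
    rw [← hs, Finset.sum_empty, zero_mul] at h1
    exact absurd h1.symm h0
  | insert a s ha ih =>
    intro v hv1 hv2 hv hs
    rw [Finset.sum_insert ha] at hs
    obtain ⟨y, hy, hy', h1, h2⟩ := hv
    have hw : ∑ a ∈ s, u a = v - u a := by rw [← hs]; abel
    have hw1 : f * (v - u a) = v - u a := by rw [mul_sub, hv1, (hu a).1]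
    have hw2 : (v - u a) * f = v - u a := by rw [sub_mul, hv2, (hu a).2]
    rcases hl (u a * y) (by rw [← mul_assoc, (hu a).1]) (by rw [mul_assoc, hy']) with
      ⟨z, hz, hz', h3, h4⟩ | ⟨z, hz, hz', h3, h4⟩
    · refine ⟨a, Finset.mem_insert_self a s, y * z, by rw [← mul_assoc, hy],
        by rw [mul_assoc, hz'], by rw [← mul_assoc, h3], ?_⟩
      exact left_of_right hf h0 hl (hu a).1 (hu a).2 (by rw [← mul_assoc, hy])
        (by rw [mul_assoc, hz']) (by rw [← mul_assoc, h3])
    · have h5 : (v - u a) * (y * z) = f := by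
        rw [← mul_assoc, sub_mul, h1, h3]
      obtain ⟨b, hb, hb'⟩ := ih (v - u a) hw1 hw2
        ⟨y * z, by rw [← mul_assoc, hy], by rw [mul_assoc, hz'], h5,
          left_of_right hf h0 hl hw1 hw2 (by rw [← mul_assoc, hy]) (by rw [mul_assoc, hz']) h5⟩ hw
      exact ⟨b, Finset.mem_insert_of_mem hb, hb'⟩

end corner

variable {R : Type} [Ring R] [Finite R] {n : ℕ} {ι : Type} [Fintype ι] [DecidableEq ι]

omit [Finite R] in
theorem in_zero (K : Subgroup (Matrix ι ι R)ˣ) : In K (0 : Matrix ι ι R) :=
  ⟨1, K.one_mem, by rw [Units.val_one, add_zero]⟩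

omit [Finite R] in
theorem in_add {K : Subgroup (Matrix ι ι R)ˣ} {A B : Matrix ι ι R} (hA : In K A) (hB : In K B)
    (h : A * B = 0) : In K (A + B) := by
  obtain ⟨g, hg, e1⟩ := hA
  obtain ⟨g', hg', e2⟩ := hB
  refine ⟨g * g', K.mul_mem hg hg', ?_⟩
  rw [Units.val_mul, e1, e2, add_mul, mul_add, mul_add, h, one_mul, one_mul, mul_one]
  abel

omit [Finite R] [Fintype ι] in
theorem ent_single {e : Fin n → R} {S : Subring R} {p : ι → Fin n} {a b : ι} {x : R}
    (hx : x ∈ S) (h1 : e (p a) * x = x) (h2 : x * e (p b) = x) :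
    Ent e S p (Matrix.single a b x) := by
  intro c d
  by_cases h : a = c ∧ b = d
  · obtain ⟨rfl, rfl⟩ := h
    rw [Matrix.single_apply_same]
    exact ⟨hx, h1, h2⟩
  · rw [Matrix.single_apply_of_ne _ _ _ _ _ h]
    exact ⟨S.zero_mem, mul_zero _, zero_mul _⟩

theorem in_elem {e : Fin n → R} {S : Subring R} {p : ι → Fin n}
    {K : Subgroup (Matrix ι ι R)ˣ} (hK : bl e p ≤ K)
    (hT : ∀ a b, p a ≠ p b → ∀ x ∈ S, In K (Matrix.single a b (e (p a) * x * e (p b))))
    {a b : ι} (hab : a ≠ b) {x : R} (hx : x ∈ S) (h1 : e (p a) * x = x) (h2 : x * e (p b) = x) :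
    In K (Matrix.single a b x) := by
  by_cases h : p a = p b
  · have h3 : Matrix.single a b x * Matrix.single a b x = 0 :=
      Matrix.single_mul_single_of_ne x a b a hab.symm x
    have h4 : (1 + Matrix.single a b x) * (1 - Matrix.single a b x) =
        1 - Matrix.single a b x * Matrix.single a b x := by noncomm_ring
    have h5 : (1 - Matrix.single a b x) * (1 + Matrix.single a b x) =
        1 - Matrix.single a b x * Matrix.single a b x := by noncomm_ring
    let t : (Matrix ι ι R)ˣ := ⟨1 + Matrix.single a b x, 1 - Matrix.single a b x, by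
      rw [h4, h3, sub_zero], by rw [h5, h3, sub_zero]⟩
    refine ⟨t, hK ?_, rfl⟩
    show Blk e p (1 + Matrix.single a b x - 1)
    rw [add_sub_cancel_left]
    refine ⟨ent_single (Subring.mem_top x) h1 h2, fun c d hcd => ?_⟩
    apply Matrix.single_apply_of_ne
    rintro ⟨rfl, rfl⟩
    exact hcd h
  · have := hT a b h x hx
    rwa [h1, h2] at this

theorem in_diag {e : Fin n → R} {p : ι → Fin n}
    {K : Subgroup (Matrix ι ι R)ˣ} (hK : bl e p ≤ K) {b : ι} {x : R}
    (h1 : e (p b) * x = x) (h2 : x * e (p b) = x) (hx : Un (e (p b)) (e (p b) + x)) :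
    In K (Matrix.single b b x) := by
  obtain ⟨y, hy, hy', h3, h4⟩ := hx
  have e1 : x * y = e (p b) - y := by
    rw [← h3, add_mul, hy]; abel
  have e2 : y * x = e (p b) - y := by
    rw [← h4, mul_add, hy']; abel
  have h5 : ∀ A B : Matrix ι ι R, (1 + A) * (1 + B) = 1 + (A + B + A * B) := fun A B => by
    noncomm_ring
  have h6 : x + (y - e (p b)) + x * (y - e (p b)) = 0 := by
    rw [mul_sub, e1, h2]; abel
  have h7 : (y - e (p b)) + x + (y - e (p b)) * x = 0 := by
    rw [sub_mul, e2, h1]; abel
  let t : (Matrix ι ι R)ˣ := ⟨1 + Matrix.single b b x, 1 + Matrix.single b b (y - e (p b)), by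
    rw [h5, Matrix.single_mul_single_same, ← Matrix.single_add, ← Matrix.single_add, h6,
      Matrix.single_zero, add_zero], by
    rw [h5, Matrix.single_mul_single_same, ← Matrix.single_add, ← Matrix.single_add, h7,
      Matrix.single_zero, add_zero]⟩
  refine ⟨t, hK ?_, rfl⟩
  show Blk e p (1 + Matrix.single b b x - 1)
  rw [add_sub_cancel_left]
  refine ⟨ent_single (Subring.mem_top x) h1 h2, fun c d hcd => ?_⟩
  apply Matrix.single_apply_of_ne
  rintro ⟨rfl, rfl⟩
  exact hcd rfl

theorem in_col {e : Fin n → R} {S : Subring R} {p : ι → Fin n}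
    {K : Subgroup (Matrix ι ι R)ˣ} (hK : bl e p ≤ K)
    (hT : ∀ a b, p a ≠ p b → ∀ x ∈ S, In K (Matrix.single a b (e (p a) * x * e (p b))))
    (b : ι) (x : ι → R) (hb : x b = 0)
    (hx : ∀ a, x a ∈ S ∧ e (p a) * x a = x a ∧ x a * e (p b) = x a) (s : Finset ι) :
    In K (∑ a ∈ s, Matrix.single a b (x a)) := by
  induction s using Finset.induction_on with
  | empty => rw [Finset.sum_empty]; exact in_zero K
  | insert a s ha ih =>
    rw [Finset.sum_insert ha]
    by_cases hab : a = b
    · subst hab
      rw [hb, Matrix.single_zero, zero_add]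
      exact ih
    · refine in_add (in_elem hK hT hab (hx a).1 (hx a).2.1 (hx a).2.2) ih ?_
      rw [Finset.mul_sum]
      refine Finset.sum_eq_zero fun c _ => ?_
      by_cases hc : c = b
      · subst hc
        rw [hb, Matrix.single_zero, mul_zero]
      · exact Matrix.single_mul_single_of_ne _ _ _ _ (fun h => hc h.symm) _

theorem in_row {e : Fin n → R} {S : Subring R} {p : ι → Fin n}
    {K : Subgroup (Matrix ι ι R)ˣ} (hK : bl e p ≤ K)
    (hT : ∀ a b, p a ≠ p b → ∀ x ∈ S, In K (Matrix.single a b (e (p a) * x * e (p b))))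
    (b : ι) (x : ι → R) (hb : x b = 0)
    (hx : ∀ a, x a ∈ S ∧ e (p b) * x a = x a ∧ x a * e (p a) = x a) (s : Finset ι) :
    In K (∑ a ∈ s, Matrix.single b a (x a)) := by
  induction s using Finset.induction_on with
  | empty => rw [Finset.sum_empty]; exact in_zero K
  | insert a s ha ih =>
    rw [Finset.sum_insert ha]
    by_cases hab : a = b
    · subst hab
      rw [hb, Matrix.single_zero, zero_add]
      exact ih
    · refine in_add (in_elem hK hT (fun h => hab h.symm) (hx a).1 (hx a).2.1 (hx a).2.2) ih ?_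
      rw [Finset.mul_sum]
      refine Finset.sum_eq_zero fun c _ => ?_
      exact Matrix.single_mul_single_of_ne _ _ _ _ hab _

/-- clearing of row and column `b` once the entry `(b, b)` is `1` -/
theorem clear {e : Fin n → R} {S : Subring R} {p : ι → Fin n}
    {K : Subgroup (Matrix ι ι R)ˣ} (hK : bl e p ≤ K)
    (hT : ∀ a b, p a ≠ p b → ∀ x ∈ S, In K (Matrix.single a b (e (p a) * x * e (p b))))
    (D : Finset ι) (b : ι) (hbD : b ∉ D)
    (ih : ∀ g ∈ gl e S p, (∀ a c, a ∈ insert b D ∨ c ∈ insert b D → (g.1 - 1) a c = 0) → g ∈ K)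
    (g : (Matrix ι ι R)ˣ) (hg : g ∈ gl e S p)
    (hD : ∀ a c, a ∈ D ∨ c ∈ D → (g.1 - 1) a c = 0) (hb : (g.1 - 1) b b = 0) : g ∈ K := by
  have hN : Ent e S p (g.1 - 1) := hg
  set N : Matrix ι ι R := g.1 - 1 with hNdef
  have hgN : g.1 = 1 + N := by rw [hNdef]; abel
  have hx : ∀ a c, -(N a c) ∈ S ∧ e (p a) * -(N a c) = -(N a c) ∧
      -(N a c) * e (p c) = -(N a c) := fun a c => (hN.neg) a c
  obtain ⟨k, hk, ek⟩ := in_col hK hT b (fun a => -(N a b)) (by simp only [hb, neg_zero])
    (fun a => hx a b) Finset.univ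
  obtain ⟨l, hl, el⟩ := in_row hK hT b (fun a => -(N b a)) (by simp only [hb, neg_zero])
    (fun a => hx b a) Finset.univ
  have eA : ∀ c d, (∑ a, Matrix.single a b (-(N a b))) c d = if d = b then -(N c b) else 0 := by
    intro c d
    rw [Matrix.sum_apply]
    rw [Finset.sum_eq_single c]
    · by_cases h : d = b
      · subst h
        rw [Matrix.single_apply_same, if_pos rfl]
      · rw [if_neg h, Matrix.single_apply_of_ne _ _ _ _ _ (fun h' => h h'.2.symm)]
    · intro a _ hac
      exact Matrix.single_apply_of_ne _ _ _ _ _ (fun h' => hac h'.1)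
    · intro h
      exact absurd (Finset.mem_univ c) h
  have eB : ∀ c d, (∑ a, Matrix.single b a (-(N b a))) c d = if c = b then -(N b d) else 0 := by
    intro c d
    rw [Matrix.sum_apply]
    rw [Finset.sum_eq_single d]
    · by_cases h : c = b
      · subst h
        rw [Matrix.single_apply_same, if_pos rfl]
      · rw [if_neg h, Matrix.single_apply_of_ne _ _ _ _ _ (fun h' => h h'.1.symm)]
    · intro a _ hac
      exact Matrix.single_apply_of_ne _ _ _ _ _ (fun h' => hac h'.2)
    · intro h
      exact absurd (Finset.mem_univ d) h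
  set A : Matrix ι ι R := ∑ a, Matrix.single a b (-(N a b)) with hA
  set B : Matrix ι ι R := ∑ a, Matrix.single b a (-(N b a)) with hB
  have hAe : Ent e S p A := by
    intro c d
    rw [eA]
    by_cases h : d = b
    · subst h; rw [if_pos rfl]; exact hx c d
    · rw [if_neg h]; exact ⟨S.zero_mem, mul_zero _, zero_mul _⟩
  have hBe : Ent e S p B := by
    intro c d
    rw [eB]
    by_cases h : c = b
    · subst h; rw [if_pos rfl]; exact hx c d
    · rw [if_neg h]; exact ⟨S.zero_mem, mul_zero _, zero_mul _⟩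
  have hkg : k ∈ gl e S p := by
    show Ent e S p (k.1 - 1)
    rw [ek, add_sub_cancel_left]; exact hAe
  have hlg : l ∈ gl e S p := by
    show Ent e S p (l.1 - 1)
    rw [el, add_sub_cancel_left]; exact hBe
  have e1 : (k * g * l).1 - 1 = (A + N + A * N) + B + (A + N + A * N) * B := by
    rw [Units.val_mul, Units.val_mul, ek, hgN, el]
    noncomm_ring
  have e2 : ∀ a c, (A * N) a c = -(N a b) * N b c := by
    intro a c
    rw [Matrix.mul_apply, Finset.sum_eq_single b]
    · rw [eA, if_pos rfl]
    · intro d _ hd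
      rw [eA, if_neg hd, zero_mul]
    · intro h
      exact absurd (Finset.mem_univ b) h
  have e3 : ∀ a c, (A + N + A * N) a c =
      (if c = b then -(N a b) else 0) + N a c + -(N a b) * N b c := by
    intro a c
    rw [Matrix.add_apply, Matrix.add_apply, eA, e2]
  have e4 : ∀ a, (A + N + A * N) a b = 0 := by
    intro a
    rw [e3, if_pos rfl, hb, mul_zero, add_zero, neg_add_cancel]
  have e5 : (A + N + A * N) * B = 0 := by
    ext a c
    rw [Matrix.mul_apply, Matrix.zero_apply]
    refine Finset.sum_eq_zero fun d _ => ?_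
    by_cases hd : d = b
    · subst hd; rw [e4, zero_mul]
    · rw [eB, if_neg hd, mul_zero]
  have e6 : ∀ a c, ((k * g * l).1 - 1) a c =
      (if c = b then -(N a b) else 0) + N a c + -(N a b) * N b c +
        (if a = b then -(N b c) else 0) := by
    intro a c
    rw [e1, e5, add_zero, Matrix.add_apply, e3, eB]
  have hmem : k * g * l ∈ K := by
    refine ih _ ((gl e S p).mul_mem ((gl e S p).mul_mem hkg hg) hlg) ?_
    intro a c hac
    rw [e6]
    by_cases h1 : a = b
    · subst h1
      rw [hb, if_pos rfl, neg_zero, zero_mul, ite_self, zero_add, add_zero, add_neg_cancel]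
    · by_cases h2 : c = b
      · subst h2
        rw [hb, if_pos rfl, if_neg h1, mul_zero, add_zero, add_zero, neg_add_cancel]
      · rw [if_neg h1, if_neg h2, add_zero, zero_add]
        rcases hac with h | h
        · have h3 : a ∈ D := (Finset.mem_insert.1 h).resolve_left h1
          rw [hD a c (Or.inl h3), hD a b (Or.inl h3), neg_zero, zero_mul, add_zero]
        · have h3 : c ∈ D := (Finset.mem_insert.1 h).resolve_left h2
          rw [hD a c (Or.inr h3), hD b c (Or.inr h3), mul_zero, add_zero]
  have : g = k⁻¹ * (k * g * l) * l⁻¹ := by group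
  rw [this]
  exact K.mul_mem (K.mul_mem (K.inv_mem hk) hmem) (K.inv_mem hl)

/-- the term of the row that can be made a unit -/
theorem pivot {e : Fin n → R} (he : ∀ i, e i * e i = e i)
    (hl : ∀ i x, e i * x = x → x * e i = x →
      (∃ y, e i * y = y ∧ y * e i = y ∧ x * y = e i ∧ y * x = e i) ∨
      (∃ y, e i * y = y ∧ y * e i = y ∧ (e i - x) * y = e i ∧ y * (e i - x) = e i))
    {p : ι → Fin n} {S : Subring R} (hS : ∀ i x, e i * x * e i ∈ S)
    (g : (Matrix ι ι R)ˣ) (hg : g ∈ gl e S p) (b : ι) (h0 : e (p b) ≠ 0) :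
    ∃ (a : ι) (z : R), z ∈ S ∧ e (p b) * z = z ∧ z * e (p a) = z ∧
      z * ((g.1 - 1) a b + if a = b then e (p b) else 0) = e (p b) := by
  have heS : ∀ i, e i ∈ S := fun i => by
    have := hS i 1
    rwa [mul_one, he] at this
  have hN : Ent e S p (g.1 - 1) := hg
  have hN' : Ent e S p (g⁻¹.1 - 1) := (gl e S p).inv_mem hg
  set N : Matrix ι ι R := g.1 - 1 with hNdef
  set N' : Matrix ι ι R := g⁻¹.1 - 1 with hNdef'
  have h1 : N' * N + N' + N = 0 := by
    have h2 : g⁻¹.1 * g.1 = 1 := by rw [← Units.val_mul, inv_mul_cancel, Units.val_one]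
    have h3 : N' * N + N' + N = g⁻¹.1 * g.1 - 1 := by
      rw [hNdef, hNdef']; noncomm_ring
    rw [h3, h2, sub_self]
  let H : ι → R := fun a => N a b + if a = b then e (p b) else 0
  let H' : ι → R := fun a => N' b a + if a = b then e (p b) else 0
  have hH1 : ∀ a, e (p a) * H a = H a := by
    intro a
    show e (p a) * (N a b + if a = b then e (p b) else 0) = N a b + if a = b then e (p b) else 0
    by_cases h : a = b
    · subst h; rw [if_pos rfl, mul_add, (hN _ _).2.1, he]
    · rw [if_neg h, add_zero, (hN _ _).2.1]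
  have hH2 : ∀ a, H a * e (p b) = H a := by
    intro a
    show (N a b + if a = b then e (p b) else 0) * e (p b) = N a b + if a = b then e (p b) else 0
    by_cases h : a = b
    · subst h; rw [if_pos rfl, add_mul, (hN _ _).2.2, he]
    · rw [if_neg h, add_zero, (hN _ _).2.2]
  have hH1' : ∀ a, e (p b) * H' a = H' a := by
    intro a
    show e (p b) * (N' b a + if a = b then e (p b) else 0) = N' b a + if a = b then e (p b) else 0
    by_cases h : a = b
    · subst h; rw [if_pos rfl, mul_add, (hN' _ _).2.1, he]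
    · rw [if_neg h, add_zero, (hN' _ _).2.1]
  have hH2' : ∀ a, H' a * e (p a) = H' a := by
    intro a
    show (N' b a + if a = b then e (p b) else 0) * e (p a) = N' b a + if a = b then e (p b) else 0
    by_cases h : a = b
    · subst h; rw [if_pos rfl, add_mul, (hN' _ _).2.2, he]
    · rw [if_neg h, add_zero, (hN' _ _).2.2]
  have hHS' : ∀ a, H' a ∈ S := by
    intro a
    refine S.add_mem (hN' b a).1 ?_
    by_cases h : a = b
    · rw [if_pos h]; exact heS _
    · rw [if_neg h]; exact S.zero_mem
  have hsum : ∑ a, H' a * H a = e (p b) := by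
    have h2 : ∀ a, H' a * H a = N' b a * N a b + ((if a = b then N' b b else 0) +
        ((if a = b then N b b else 0) + if a = b then e (p b) else 0)) := by
      intro a
      show (N' b a + if a = b then e (p b) else 0) * (N a b + if a = b then e (p b) else 0) = _
      by_cases h : a = b
      · subst h
        simp only [if_true]
        rw [add_mul, mul_add, mul_add, (hN' _ _).2.2, (hN _ _).2.1, he]
        abel
      · simp only [if_neg h, add_zero]
    rw [Finset.sum_congr rfl fun a _ => h2 a, Finset.sum_add_distrib, Finset.sum_add_distrib,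
      Finset.sum_add_distrib, Finset.sum_ite_eq' , Finset.sum_ite_eq', Finset.sum_ite_eq',
      if_pos (Finset.mem_univ b), if_pos (Finset.mem_univ b), if_pos (Finset.mem_univ b),
      ← Matrix.mul_apply]
    have h3 : (N' * N + N' + N) b b = 0 := by rw [h1]; rfl
    rw [Matrix.add_apply, Matrix.add_apply] at h3
    calc (N' * N) b b + (N' b b + (N b b + e (p b)))
        = ((N' * N) b b + N' b b + N b b) + e (p b) := by abel
      _ = e (p b) := by rw [h3, zero_add]
  obtain ⟨a, _, y, hy, hy', h2, h3⟩ := exists_term (he (p b)) h0 (hl (p b)) Finset.univ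
    (fun a => H' a * H a) (fun a => ⟨by rw [← mul_assoc, hH1'], by rw [mul_assoc, hH2]⟩)
    (e (p b)) (he _) (he _) ⟨e (p b), he _, he _, he _, he _⟩ hsum
  refine ⟨a, y * H' a, S.mul_mem ?_ (hHS' a), by rw [← mul_assoc, hy], by rw [mul_assoc, hH2'],
    ?_⟩
  · have := hS (p b) y
    rwa [hy, hy'] at this
  · rw [mul_assoc]
    exact h3

theorem aux {e : Fin n → R} (he : ∀ i, e i * e i = e i)
    (hl : ∀ i x, e i * x = x → x * e i = x →
      (∃ y, e i * y = y ∧ y * e i = y ∧ x * y = e i ∧ y * x = e i) ∨
      (∃ y, e i * y = y ∧ y * e i = y ∧ (e i - x) * y = e i ∧ y * (e i - x) = e i))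
    {p : ι → Fin n} {S : Subring R} (hS : ∀ i x, e i * x * e i ∈ S)
    {K : Subgroup (Matrix ι ι R)ˣ} (hK : bl e p ≤ K)
    (hT : ∀ a b, p a ≠ p b → ∀ x ∈ S, In K (Matrix.single a b (e (p a) * x * e (p b))))
    (m : ℕ) : ∀ D : Finset ι, Dᶜ.card = m → ∀ g ∈ gl e S p,
      (∀ a c, a ∈ D ∨ c ∈ D → (g.1 - 1) a c = 0) → g ∈ K := by
  induction m with
  | zero =>
    intro D hD g _ h
    rw [Finset.card_eq_zero, Finset.compl_eq_empty_iff] at hD
    have h1 : g.1 - 1 = 0 := by
      ext a c
      rw [h a c (Or.inl (hD ▸ Finset.mem_univ a))]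
      rfl
    have h2 : g = 1 := Units.ext (sub_eq_zero.1 h1)
    rw [h2]
    exact K.one_mem
  | succ m ih =>
    intro D hD g hg h
    have heS : ∀ i, e i ∈ S := fun i => by
      have := hS i 1
      rwa [mul_one, he] at this
    obtain ⟨b, hb⟩ : ∃ b, b ∈ Dᶜ := by
      rw [← Finset.Nonempty, ← Finset.card_pos, hD]; exact Nat.succ_pos m
    have hbD : b ∉ D := Finset.mem_compl.1 hb
    have hcard : (insert b D)ᶜ.card = m := by
      rw [Finset.compl_insert, Finset.card_erase_of_mem hb, hD]; rfl
    have ih' := ih (insert b D) hcard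
    have hN : Ent e S p (g.1 - 1) := hg
    by_cases h0 : e (p b) = 0
    · refine ih' g hg fun a c hac => ?_
      rcases hac with h1 | h1
      · rcases Finset.mem_insert.1 h1 with rfl | h2
        · rw [← (hN a c).2.1, h0, zero_mul]
        · exact h a c (Or.inl h2)
      · rcases Finset.mem_insert.1 h1 with rfl | h2
        · rw [← (hN a c).2.2, h0, mul_zero]
        · exact h a c (Or.inr h2)
    · obtain ⟨a₀, z, hzS, hz1, hz2, hz3⟩ := pivot he hl hS g hg b h0
      set N : Matrix ι ι R := g.1 - 1 with hNdef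
      have hgN : g.1 = 1 + N := by rw [hNdef]; abel
      have ha₀ : a₀ ∉ D := by
        intro ha
        have hne : a₀ ≠ b := fun h' => hbD (h' ▸ ha)
        rw [h a₀ b (Or.inl ha), if_neg hne, add_zero, mul_zero] at hz3
        exact h0 hz3.symm
      -- the new multiple
      set y : R := -(N b b) * z with hy
      have hyS : y ∈ S := S.mul_mem (S.neg_mem (hN b b).1) hzS
      have hy1 : e (p b) * y = y := by
        rw [hy, ← mul_assoc, mul_neg, (hN b b).2.1]
      have hy2 : y * e (p a₀) = y := by rw [hy, mul_assoc, hz2]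
      have hin : In K (Matrix.single b a₀ y) := by
        by_cases hba : b = a₀
        · subst hba
          refine in_diag hK hy1 hy2 ?_
          rw [if_pos rfl] at hz3
          have hH1 : e (p b) * (N b b + e (p b)) = N b b + e (p b) := by
            rw [mul_add, (hN b b).2.1, he]
          have hH2 : (N b b + e (p b)) * e (p b) = N b b + e (p b) := by
            rw [add_mul, (hN b b).2.2, he]
          have h5 : (N b b + e (p b)) * z = e (p b) :=
            left_of_right (he _) h0 (hl _) hz1 hz2 hH1 hH2 hz3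
          have h6 : e (p b) + y = z := by
            rw [hy, ← h5, neg_mul, add_mul, hz1]
            abel
          rw [h6]
          exact ⟨N b b + e (p b), hH1, hH2, hz3, h5⟩
        · exact in_elem hK hT hba hyS hy1 hy2
      obtain ⟨k, hk, ek⟩ := hin
      have hkg : k ∈ gl e S p := by
        show Ent e S p (k.1 - 1)
        rw [ek, add_sub_cancel_left]
        exact ent_single hyS hy1 hy2
      have e1 : (k * g).1 - 1 = N + Matrix.single b a₀ y * (1 + N) := by
        rw [Units.val_mul, ek, hgN]
        noncomm_ring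
      have e2 : ∀ a c, ((k * g).1 - 1) a c =
          N a c + if a = b then y * ((if a₀ = c then 1 else 0) + N a₀ c) else 0 := by
        intro a c
        rw [e1, Matrix.add_apply]
        congr 1
        by_cases hab : a = b
        · subst hab
          rw [if_pos rfl, Matrix.single_mul_apply_same, Matrix.add_apply, Matrix.one_apply]
        · rw [if_neg hab, Matrix.single_mul_apply_of_ne _ _ _ _ _ hab]
      have hmem : k * g ∈ K := by
        refine clear hK hT D b hbD ih' (k * g) ((gl e S p).mul_mem hkg hg) ?_ ?_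
        · intro a c hac
          rw [e2]
          rcases hac with h1 | h1
          · have hne : a ≠ b := fun h' => hbD (h' ▸ h1)
            rw [if_neg hne, h a c (Or.inl h1), add_zero]
          · have hne : a₀ ≠ c := fun h' => ha₀ (h' ▸ h1)
            rw [h a c (Or.inr h1), h a₀ c (Or.inr h1), if_neg hne, add_zero, mul_zero, ite_self,
              add_zero]
        · rw [e2, if_pos rfl]
          have h5 : y * ((if a₀ = b then 1 else 0) + N a₀ b) =
              -(N b b) * (z * (N a₀ b + if a₀ = b then e (p b) else 0)) := by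
            by_cases hab : a₀ = b
            · subst hab
              rw [if_pos rfl, if_pos rfl, hy, mul_assoc, mul_add, mul_add z, mul_one, hz2,
                add_comm]
            · rw [if_neg hab, if_neg hab, zero_add, add_zero, hy, mul_assoc]
          rw [h5, hz3, neg_mul, (hN b b).2.2, add_neg_cancel]
      have : g = k⁻¹ * (k * g) := by group
      rw [this]
      exact K.mul_mem (K.inv_mem hk) hmem

end H726

open Matrix in
/-- ROW 4 (elimination over local corners). -/
theorem elim_row {R : Type} [Ring R] [Finite R] {n : ℕ} {ι : Type} [Fintype ι] [DecidableEq ι]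
    (e : Fin n → R)
    (he : ∀ i, e i * e i = e i) (ho : ∀ i j, i ≠ j → e i * e j = 0) (hs : ∑ i, e i = 1)
    (hl : ∀ i x, e i * x = x → x * e i = x →
      (∃ y, e i * y = y ∧ y * e i = y ∧ x * y = e i ∧ y * x = e i) ∨
      (∃ y, e i * y = y ∧ y * e i = y ∧ (e i - x) * y = e i ∧ y * (e i - x) = e i))
    (p : ι → Fin n) (S : Subring R) (hS : ∀ i x, e i * x * e i ∈ S)
    (K : Subgroup (Matrix ι ι R)ˣ) (hK : bl e p ≤ K)
    (hT : ∀ a b, p a ≠ p b → ∀ x ∈ S, In K (Matrix.single a b (e (p a) * x * e (p b)))) :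
    gl e S p ≤ K := fun g hg =>
  H726.aux he hl hS hK hT _ ∅ rfl g hg fun _ _ h => by
    rcases h with h | h <;> exact absurd h (Finset.notMem_empty _)

end Vale.Agent.P183.H577
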