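import Vale.Agent.P183.R2.H577.Sk
import Vale.Agent.P183.R2.H381.Refine
import Vale.Agent.P183.R2.H726.Elim

/-! P183: elimination without local corners. -/

set_option linter.unusedSectionVars false

namespace Vale.Agent.P183.H577

open Matrix

namespace H726

variable {R : Type} [Ring R] [Finite R] {n m : ℕ} {ι κ : Type} [Fintype ι] [DecidableEq ι]
  [Fintype κ] [DecidableEq κ]

/-- the map `g ↦ 1 + Q (g - 1) Q'` -/
def tr (Q : Matrix ι κ R) (Q' : Matrix κ ι R) (P : Matrix κ κ R → Prop) (hP : Clo P)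
    (h : ∀ N, P N → N * (Q' * Q) = N) : grp P hP →* (Matrix ι ι R)ˣ :=
  MonoidHom.toHomUnits
    { toFun := fun g => 1 + Q * (g.1.1 - 1) * Q'
      map_one' := by simp
      map_mul' := by
        intro g k
        have h1 := h _ g.2
        have e1 : ((g * k : grp P hP).1.1 - 1) = (g.1.1 - 1) * (k.1.1 - 1) + (g.1.1 - 1) +
            (k.1.1 - 1) := by
          rw [Subgroup.coe_mul, Units.val_mul]
          noncomm_ring
        have e2 : (1 + Q * (g.1.1 - 1) * Q') * (1 + Q * (k.1.1 - 1) * Q') =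
            1 + (Q * ((g.1.1 - 1) * (Q' * Q)) * (k.1.1 - 1) * Q' + Q * (g.1.1 - 1) * Q' +
              Q * (k.1.1 - 1) * Q') := by
          simp only [Matrix.mul_add, Matrix.add_mul, Matrix.mul_one, Matrix.one_mul,
            Matrix.mul_assoc]
          abel
        rw [e1, e2, h1]
        simp only [Matrix.mul_add, Matrix.add_mul, Matrix.mul_assoc] }

theorem tr_val (Q : Matrix ι κ R) (Q' : Matrix κ ι R) (P : Matrix κ κ R → Prop) (hP : Clo P)
    (h : ∀ N, P N → N * (Q' * Q) = N) (g : grp P hP) :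
    (tr Q Q' P hP h g).1 = 1 + Q * (g.1.1 - 1) * Q' := rfl

/-- the group of all `g` with `1 + Q (g - 1) Q'` in `K` -/
def pull (Q : Matrix ι κ R) (Q' : Matrix κ ι R) (P : Matrix κ κ R → Prop) (hP : Clo P)
    (h : ∀ N, P N → N * (Q' * Q) = N) (K : Subgroup (Matrix ι ι R)ˣ) :
    Subgroup (Matrix κ κ R)ˣ := (K.comap (tr Q Q' P hP h)).map (grp P hP).subtype

theorem mem_pull {Q : Matrix ι κ R} {Q' : Matrix κ ι R} {P : Matrix κ κ R → Prop} {hP : Clo P}
    {h : ∀ N, P N → N * (Q' * Q) = N} {K : Subgroup (Matrix ι ι R)ˣ} {g : (Matrix κ κ R)ˣ} :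
    g ∈ pull Q Q' P hP h K ↔ P (g.1 - 1) ∧ In K (Q * (g.1 - 1) * Q') := by
  constructor
  · rintro ⟨k, hk, rfl⟩
    exact ⟨k.2, _, hk, rfl⟩
  · rintro ⟨h1, k, hk, hk2⟩
    refine ⟨⟨g, h1⟩, ?_, rfl⟩
    show tr Q Q' P hP h ⟨g, h1⟩ ∈ K
    have : tr Q Q' P hP h ⟨g, h1⟩ = k := Units.ext (by rw [tr_val, hk2])
    rw [this]
    exact hk

theorem unit_sq {N : Matrix κ κ R} (h : N * N = 0) : ∃ g : (Matrix κ κ R)ˣ, g.1 = 1 + N := by
  refine ⟨⟨1 + N, 1 - N, ?_, ?_⟩, rfl⟩
  · have : (1 + N) * (1 - N) = 1 - N * N := by noncomm_ring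
    rw [this, h, sub_zero]
  · have : (1 - N) * (1 + N) = 1 - N * N := by noncomm_ring
    rw [this, h, sub_zero]

/-- `1 + N` for `N` in the block diagonal ring with `N * N = 0` -/
theorem in_bl_sq {e : Fin n → R} {p : ι → Fin n} {N : Matrix ι ι R} (hN : Blk e p N)
    (h : N * N = 0) : In (bl e p) N := by
  obtain ⟨g, hg⟩ := unit_sq h
  refine ⟨g, ?_, hg⟩
  show Blk e p (g.1 - 1)
  rw [hg, add_sub_cancel_left]
  exact hN

end H726

open H726 in
/-- ROW 11: `elim_row` without the hypothesis that the corners are local. -/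
theorem elim_gen {R : Type} [Ring R] [Finite R] {n : ℕ} {ι : Type} [Fintype ι] [DecidableEq ι]
    (e : Fin n → R)
    (he : ∀ i, e i * e i = e i) (ho : ∀ i j, i ≠ j → e i * e j = 0) (hs : ∑ i, e i = 1)
    (p : ι → Fin n) (S : Subring R) (hS : ∀ i x, e i * x * e i ∈ S)
    (K : Subgroup (Matrix ι ι R)ˣ) (hK : bl e p ≤ K)
    (hT : ∀ a b, p a ≠ p b → ∀ x ∈ S, In K (Matrix.single a b (e (p a) * x * e (p b)))) :
    gl e S p ≤ K := by
  classical
  obtain ⟨m, f, hf, hfo, hfs, hfe, hfl⟩ := refine_row e he ho hs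
  choose q hq1 hq2 using hfe
  -- index type
  let κ : Type := {c : ι × Fin m // e (p c.1) * f c.2 = f c.2 ∧ f c.2 * e (p c.1) = f c.2}
  let p' : κ → Fin m := fun c => c.1.2
  let Q : Matrix ι κ R := fun a c => if a = c.1.1 then f c.1.2 else 0
  let Q' : Matrix κ ι R := fun c a => if a = c.1.1 then f c.1.2 else 0
  have hfS : ∀ j x, f j * x * f j ∈ S := by
    intro j x
    have := hS (q j) (f j * x * f j)
    have e1 : e (q j) * (f j * x * f j) * e (q j) = f j * x * f j := by
      have e2 : e (q j) * (f j * x * f j) * e (q j) =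
          (e (q j) * f j) * x * (f j * e (q j)) := by
        simp only [mul_assoc]
      rw [e2, hq1, hq2]
    rwa [e1] at this
  have hfS1 : ∀ j, f j ∈ S := by
    intro j
    have := hfS j 1
    rwa [mul_one, hf] at this
  -- products
  have hQQ' : ∀ N : Matrix ι ι R, ∀ a b, (Q' * N * Q) a b = f a.1.2 * N a.1.1 b.1.1 * f b.1.2 := by
    intro N a b
    rw [Matrix.mul_apply, Finset.sum_eq_single b.1.1]
    · rw [Matrix.mul_apply, Finset.sum_eq_single a.1.1]
      · simp [Q, Q']
      · intro c _ hc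
        simp [Q', hc]
      · simp
    · intro c _ hc
      simp [Q, hc]
    · simp
  have h1 : ∀ N, Ent f ⊤ p' N → N * (Q' * Q) = N := by
    intro N hN
    have e1 : Q' * Q = Matrix.diagonal fun c : κ => f c.1.2 := by
      ext a b
      have := hQQ' 1 a b
      rw [Matrix.mul_one] at this
      rw [this, Matrix.diagonal_apply]
      by_cases hab : a = b
      · subst hab
        simp [hf]
      · rw [if_neg hab]
        by_cases h2 : a.1.1 = b.1.1
        · have h3 : a.1.2 ≠ b.1.2 := fun h3 => hab (Subtype.ext (Prod.ext h2 h3))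
          rw [h2, Matrix.one_apply_eq, mul_one, hfo _ _ h3]
        · rw [Matrix.one_apply_ne h2, mul_zero, zero_mul]
    rw [e1]
    ext a b
    rw [Matrix.mul_diagonal]
    exact (hN a b).2.2
  have hQN : ∀ (N : Matrix κ κ R) a b, (Q * N * Q') a b =
      ∑ c : κ, ∑ d : κ, if a = c.1.1 ∧ b = d.1.1 then f c.1.2 * N c d * f d.1.2 else 0 := by
    intro N a b
    rw [Matrix.mul_apply, Finset.sum_comm]
    refine Finset.sum_congr rfl fun d _ => ?_
    rw [Matrix.mul_apply, Finset.sum_mul]
    refine Finset.sum_congr rfl fun c _ => ?_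
    by_cases h1 : a = c.1.1 <;> by_cases h2 : b = d.1.1 <;> simp [Q, Q', h1, h2]
  have he2 : ∀ a : ι, (∑ c : κ, if a = c.1.1 then f c.1.2 else 0) = e (p a) := by
    intro a
    have s1 : (∑ c : κ, if a = c.1.1 then f c.1.2 else 0) =
        ∑ c ∈ Finset.univ.filter (fun c : ι × Fin m =>
          e (p c.1) * f c.2 = f c.2 ∧ f c.2 * e (p c.1) = f c.2),
          if a = c.1 then f c.2 else 0 :=
      (Finset.sum_subtype _ (by simp) fun c : ι × Fin m => if a = c.1 then f c.2 else 0).symm
    rw [s1, Finset.sum_filter, Fintype.sum_prod_type, Finset.sum_eq_single a]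
    · rw [← mul_one (e (p a)), ← hfs, Finset.mul_sum]
      refine Finset.sum_congr rfl fun j _ => ?_
      by_cases h : q j = p a
      · have h3 : e (p a) * f j = f j := by rw [← h, hq1]
        have h4 : f j * e (p a) = f j := by rw [← h, hq2]
        rw [if_pos ⟨h3, h4⟩, if_pos rfl, h3]
      · have h3 : e (p a) * f j = 0 := by
          rw [← hq1 j, ← mul_assoc, ho _ _ (Ne.symm h), zero_mul]
        change (if e (p a) * f j = f j ∧ f j * e (p a) = f j then (if a = a then f j else 0)
          else 0) = e (p a) * f j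
        by_cases h4 : e (p a) * f j = f j ∧ f j * e (p a) = f j
        · rw [if_pos h4, if_pos rfl, h4.1]
        · rw [if_neg h4, h3]
    · intro b _ hb
      refine Finset.sum_eq_zero fun j _ => ?_
      rw [if_neg (Ne.symm hb), ite_self]
    · simp
  have h2 : ∀ N, Ent e ⊤ p N → N * (Q * Q') = N := by
    intro N hN
    have e1 : Q * Q' = Matrix.diagonal fun a => e (p a) := by
      ext a b
      rw [Matrix.mul_apply, Matrix.diagonal_apply]
      by_cases hab : a = b
      · subst hab
        rw [if_pos rfl, ← he2 a]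
        refine Finset.sum_congr rfl fun c _ => ?_
        by_cases h : a = c.1.1 <;> simp [Q, Q', h, hf]
      · rw [if_neg hab]
        refine Finset.sum_eq_zero fun c _ => ?_
        by_cases h : a = c.1.1
        · have : b ≠ c.1.1 := fun h' => hab (h.trans h'.symm)
          simp [Q, Q', this]
        · simp [Q, h]
    rw [e1]
    ext a b
    rw [Matrix.mul_diagonal]
    exact (hN a b).2.2
  have h2' : ∀ N, Ent e ⊤ p N → (Q * Q') * N = N := by
    intro N hN
    have e1 : Q * Q' = Matrix.diagonal fun a => e (p a) := by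
      ext a b
      rw [Matrix.mul_apply, Matrix.diagonal_apply]
      by_cases hab : a = b
      · subst hab
        rw [if_pos rfl, ← he2 a]
        refine Finset.sum_congr rfl fun c _ => ?_
        by_cases h : a = c.1.1 <;> simp [Q, Q', h, hf]
      · rw [if_neg hab]
        refine Finset.sum_eq_zero fun c _ => ?_
        by_cases h : a = c.1.1
        · have : b ≠ c.1.1 := fun h' => hab (h.trans h'.symm)
          simp [Q, Q', this]
        · simp [Q, h]
    rw [e1]
    ext a b
    rw [Matrix.diagonal_mul]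
    exact (hN a b).2.1
  have hQE : ∀ N : Matrix κ κ R, Ent e ⊤ p (Q * N * Q') := by
    intro N a b
    refine ⟨Subring.mem_top _, ?_, ?_⟩
    · rw [hQN, Finset.mul_sum]
      refine Finset.sum_congr rfl fun c _ => ?_
      rw [Finset.mul_sum]
      refine Finset.sum_congr rfl fun d _ => ?_
      split_ifs with h
      · rw [← mul_assoc, ← mul_assoc, h.1, c.2.1]
      · rw [mul_zero]
    · rw [hQN, Finset.sum_mul]
      refine Finset.sum_congr rfl fun c _ => ?_
      rw [Finset.sum_mul]
      refine Finset.sum_congr rfl fun d _ => ?_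
      split_ifs with h
      · rw [mul_assoc, h.2, d.2.2]
      · rw [zero_mul]
  have key := elim_row f hf hfo hfs hfl p' S hfS (pull Q Q' (Ent f ⊤ p') (cloEnt f ⊤ p') h1 K)
    ?_ ?_
  · intro g hg
    have hgE : Ent e ⊤ p (g.1 - 1) := Ent.mono hg le_top
    have hg1 : tr Q' Q (Ent e ⊤ p) (cloEnt e ⊤ p) h2 ⟨g, hgE⟩ ∈ gl f S p' := by
      show Ent f S p' ((tr Q' Q (Ent e ⊤ p) (cloEnt e ⊤ p) h2 ⟨g, hgE⟩).1 - 1)
      rw [tr_val, add_sub_cancel_left]
      intro c d
      rw [hQQ']
      refine ⟨S.mul_mem (S.mul_mem (hfS1 _) (hg _ _).1) (hfS1 _), ?_, ?_⟩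
      · rw [← mul_assoc, ← mul_assoc, hf]
      · rw [mul_assoc, hf]
    obtain ⟨-, k, hk, hk2⟩ := mem_pull.1 (key hg1)
    have : k = g := by
      refine Units.ext ?_
      rw [hk2, tr_val, add_sub_cancel_left]
      have e3 : Q * (Q' * (g.1 - 1) * Q) * Q' = (Q * Q') * (g.1 - 1) * (Q * Q') := by
        simp only [Matrix.mul_assoc]
      rw [e3, h2' _ hgE, h2 _ hgE, add_sub_cancel]
    rwa [this] at hk
  · intro g hg
    have hgE : Ent f ⊤ p' (g.1 - 1) := hg.1
    refine mem_pull.2 ⟨hgE, tr Q Q' (Ent f ⊤ p') (cloEnt f ⊤ p') h1 ⟨g, hgE⟩, hK ?_, rfl⟩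
    show Blk e p ((tr Q Q' (Ent f ⊤ p') (cloEnt f ⊤ p') h1 ⟨g, hgE⟩).1 - 1)
    rw [tr_val, add_sub_cancel_left]
    refine ⟨hQE _, fun a b hab => ?_⟩
    rw [hQN]
    refine Finset.sum_eq_zero fun c _ => Finset.sum_eq_zero fun d _ => ?_
    split_ifs with h
    · by_cases hcd : c.1.2 = d.1.2
      · have : f c.1.2 = 0 := by
          rw [← c.2.1, ← h.1, hcd, ← d.2.1, ← h.2, ← mul_assoc, ho _ _ hab, zero_mul]
        rw [this, zero_mul, zero_mul]
      · rw [hg.2 c d hcd, mul_zero, zero_mul]
    · rfl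
  · intro c d hcd x hx
    have hcd' : c ≠ d := fun h => hcd (by rw [h])
    set r : R := f (p' c) * x * f (p' d) with hr
    have hfr : f (p' c) * r = r := by rw [hr, ← mul_assoc, ← mul_assoc, hf]
    have hrf : r * f (p' d) = r := by rw [hr, mul_assoc, hf]
    have her : e (p c.1.1) * r = r := by rw [← hfr, ← mul_assoc, c.2.1]
    have hre : r * e (p d.1.1) = r := by rw [← hrf, mul_assoc, d.2.2]
    have hrS : r ∈ S := S.mul_mem (S.mul_mem (hfS1 _) hx) (hfS1 _)
    have hsq := single_sq hcd' r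
    have hE : Ent f ⊤ p' (Matrix.single c d r) := ent_sgl (Subring.mem_top _) hfr hrf
    obtain ⟨g, hg⟩ := unit_sq hsq
    refine ⟨g, mem_pull.2 ⟨?_, ?_⟩, hg⟩
    · rw [hg, add_sub_cancel_left]
      exact hE
    · rw [hg, add_sub_cancel_left]
      have e4 : Q * Matrix.single c d r * Q' = Matrix.single c.1.1 d.1.1 r := by
        ext a b
        rw [hQN, Finset.sum_eq_single c, Finset.sum_eq_single d]
        · rw [Matrix.single_apply_same]
          by_cases h : a = c.1.1 ∧ b = d.1.1
          · rw [if_pos h, h.1, h.2, Matrix.single_apply_same]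
            change f (p' c) * r * f (p' d) = r
            rw [hfr, hrf]
          · rw [if_neg h, Matrix.single_apply_of_ne]
            rintro ⟨h3, h4⟩
            exact h ⟨h3.symm, h4.symm⟩
        · intro d' _ hd'
          rw [Matrix.single_apply_of_ne _ _ _ _ _ (fun h => hd' h.2.symm), mul_zero, zero_mul,
            ite_self]
        · simp
        · intro c' _ hc'
          refine Finset.sum_eq_zero fun d' _ => ?_
          rw [Matrix.single_apply_of_ne _ _ _ _ _ (fun h => hc' h.1.symm), mul_zero, zero_mul,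
            ite_self]
        · simp
      rw [e4]
      by_cases hp : p c.1.1 = p d.1.1
      · refine In.mono hK (in_bl_sq ⟨ent_sgl (Subring.mem_top _) her hre, fun a b hab => ?_⟩ ?_)
        · refine Matrix.single_apply_of_ne _ _ _ _ _ ?_
          rintro ⟨h3, h4⟩
          exact hab (by rw [← h3, ← h4, hp])
        · by_cases h : c.1.1 = d.1.1
          · rw [h, Matrix.single_mul_single_same]
            have : r * r = 0 := by
              have e5 : r * r = (r * f (p' d)) * (f (p' c) * r) := by rw [hrf, hfr]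
              rw [e5, mul_assoc, ← mul_assoc (f (p' d)), hfo _ _ (Ne.symm hcd), zero_mul,
                mul_zero]
            rw [this, Matrix.single_zero]
          · exact single_sq h r
      · have := hT _ _ hp r hrS
        rwa [her, hre] at this

end Vale.Agent.P183.H577
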